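import Mathlib
import Vale.Agent.P004H.H361.BDef

/-!
# P004 (`X_0(11)`), row R13: removal of the prime `11`
-/

open Finset

namespace Vale.Agent.P004H.H2

/-- the dilated sequence -/
def dil (q : ℕ) (f : ℕ → ℝ) (k : ℕ) : ℝ := if q ∣ k then f (k / q) else 0

/-- power saving -/
def PS (f : ℕ → ℝ) (V : ℝ) : Prop := ∃ C δ : ℝ, 0 < δ ∧ ∀ x : ℝ, 1 ≤ x →
  |∑ k ∈ Icc 1 ⌊x⌋₊, f k - V * x| ≤ C * x ^ (1 - δ)

lemma sum_dil_nat {q : ℕ} (hq : 0 < q) (f : ℕ → ℝ) (N : ℕ) :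
    ∑ k ∈ Icc 1 N, dil q f k = ∑ k ∈ Icc 1 (N / q), f k := by
  unfold dil
  rw [← sum_filter]
  refine (sum_nbij' (fun k => q * k) (fun k => k / q) ?_ ?_ ?_ ?_ ?_).symm
  · intro k hk
    rw [mem_Icc] at hk
    rw [mem_filter, mem_Icc]
    refine ⟨⟨?_, ?_⟩, dvd_mul_right q k⟩
    · exact Nat.mul_pos hq hk.1
    · calc q * k ≤ q * (N / q) := Nat.mul_le_mul_left q hk.2
        _ ≤ N := Nat.mul_div_le N q
  · intro k hk
    rw [mem_filter, mem_Icc] at hk
    rw [mem_Icc]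
    exact ⟨Nat.div_pos (Nat.le_of_dvd hk.1.1 hk.2) hq, Nat.div_le_div_right hk.1.2⟩
  · intro k _
    exact Nat.mul_div_cancel_left k hq
  · intro k hk
    rw [mem_filter] at hk
    exact Nat.mul_div_cancel' hk.2
  · intro k _
    rw [Nat.mul_div_cancel_left k hq]

lemma sum_dil {q : ℕ} (hq : 0 < q) (f : ℕ → ℝ) (x : ℝ) :
    ∑ k ∈ Icc 1 ⌊x⌋₊, dil q f k = ∑ k ∈ Icc 1 ⌊x / q⌋₊, f k := by
  rw [sum_dil_nat hq, Nat.floor_div_natCast]

lemma PS.norm {f : ℕ → ℝ} {V : ℝ} (h : PS f V) : ∃ C δ : ℝ, 0 ≤ C ∧ 0 < δ ∧ δ ≤ 1 ∧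
    ∀ x : ℝ, 1 ≤ x → ∀ q : ℕ, 0 < q →
      |∑ k ∈ Icc 1 ⌊x / q⌋₊, f k - V * (x / q)| ≤ C * x ^ (1 - δ) := by
  obtain ⟨C, δ, hδ, hC⟩ := h
  refine ⟨|C| + |V|, min δ 1, by positivity, lt_min hδ one_pos, min_le_right _ _,
    fun x hx q hq => ?_⟩
  have hq1 : (1 : ℝ) ≤ q := by exact_mod_cast hq
  have hx0 : 0 < x := by linarith
  have hpow : 1 ≤ x ^ (1 - min δ 1) :=
    Real.one_le_rpow hx (by linarith [min_le_right δ 1])
  by_cases h1 : 1 ≤ x / q
  · refine (hC _ h1).trans ?_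
    have h2 : x / q ≤ x := div_le_self hx0.le hq1
    have h3 : (x / q) ^ (1 - δ) ≤ x ^ (1 - min δ 1) := by
      calc (x / q) ^ (1 - δ) ≤ (x / q) ^ (1 - min δ 1) :=
            Real.rpow_le_rpow_of_exponent_le h1 (by linarith [min_le_left δ 1])
        _ ≤ x ^ (1 - min δ 1) :=
            Real.rpow_le_rpow (by positivity) h2 (by linarith [min_le_right δ 1])
    have h4 : 0 ≤ (x / q) ^ (1 - δ) := by positivity
    calc C * (x / q) ^ (1 - δ) ≤ |C| * (x / q) ^ (1 - δ) :=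
          mul_le_mul_of_nonneg_right (le_abs_self C) h4
      _ ≤ |C| * x ^ (1 - min δ 1) := mul_le_mul_of_nonneg_left h3 (abs_nonneg C)
      _ ≤ (|C| + |V|) * x ^ (1 - min δ 1) := by
          apply mul_le_mul_of_nonneg_right _ (by positivity)
          linarith [abs_nonneg V]
  · push Not at h1
    have h2 : ⌊x / q⌋₊ = 0 := Nat.floor_eq_zero.2 h1
    rw [h2]
    simp only [show Icc 1 0 = (∅ : Finset ℕ) by simp, sum_empty, zero_sub, abs_neg]
    rw [abs_mul, abs_of_nonneg (show 0 ≤ x / q by positivity)]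
    calc |V| * (x / q) ≤ |V| * 1 := mul_le_mul_of_nonneg_left h1.le (abs_nonneg V)
      _ ≤ |V| * x ^ (1 - min δ 1) := mul_le_mul_of_nonneg_left hpow (abs_nonneg V)
      _ ≤ (|C| + |V|) * x ^ (1 - min δ 1) := by
          apply mul_le_mul_of_nonneg_right _ (by positivity)
          linarith [abs_nonneg C]

lemma PS.sub_dil {f : ℕ → ℝ} {V : ℝ} (h : PS f V) (c : ℝ) {q : ℕ} (hq : 0 < q) :
    PS (fun k => f k - c * dil q f k) (V * (1 - c / q)) := by
  obtain ⟨C, δ, hC0, hδ, hδ1, hC⟩ := h.norm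
  refine ⟨(1 + |c|) * C, δ, hδ, fun x hx => ?_⟩
  have h1 := hC x hx 1 one_pos
  have h2 := hC x hx q hq
  simp only [Nat.cast_one, div_one] at h1
  rw [sum_sub_distrib, ← mul_sum, sum_dil hq]
  have e : ∑ k ∈ Icc 1 ⌊x⌋₊, f k - c * ∑ k ∈ Icc 1 ⌊x / q⌋₊, f k - V * (1 - c / q) * x =
      (∑ k ∈ Icc 1 ⌊x⌋₊, f k - V * x) - c * (∑ k ∈ Icc 1 ⌊x / q⌋₊, f k - V * (x / q)) := by ring
  rw [e]
  refine (abs_sub _ _).trans ?_
  rw [abs_mul]
  calc |∑ k ∈ Icc 1 ⌊x⌋₊, f k - V * x| + |c| * |∑ k ∈ Icc 1 ⌊x / q⌋₊, f k - V * (x / q)| ≤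
      C * x ^ (1 - δ) + |c| * (C * x ^ (1 - δ)) := by gcongr
    _ = _ := by ring

/-- all coefficients of `ζ(2s) ∑ λ(n)² n^{-s}` -/
noncomputable def ball (a : ℕ → ℤ) (k : ℕ) : ℝ :=
  ∑ n ∈ (Icc 1 k).filter (fun n => n ^ 2 ∣ k), (a (k / n ^ 2) : ℝ) ^ 2 / ((k / n ^ 2 : ℕ) : ℝ)

/-- `λ(k)²` -/
noncomputable def l2 (a : ℕ → ℤ) (k : ℕ) : ℝ := (a k : ℝ) ^ 2 / (k : ℝ)

/-- the part of `λ²` prime to `11` -/
noncomputable def m2 (a : ℕ → ℤ) (k : ℕ) : ℝ := if 11 ∣ k then 0 else l2 a k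

lemma l2_mul {a : ℕ → ℤ} (h : ∀ n, a (11 * n) ^ 2 = a n ^ 2) (k : ℕ) :
    l2 a (11 * k) = 1 / 11 * l2 a k := by
  unfold l2
  have h1 : (a (11 * k) : ℝ) ^ 2 = (a k : ℝ) ^ 2 := by exact_mod_cast h k
  rw [h1]
  push_cast
  rw [mul_comm (11 : ℝ), ← div_div]
  ring

lemma step1 {a : ℕ → ℤ} (h : ∀ n, a (11 * n) ^ 2 = a n ^ 2) (k : ℕ) :
    ball a k - 1 / 11 * dil 11 (ball a) k =
      ∑ n ∈ (Icc 1 k).filter (fun n => n ^ 2 ∣ k), m2 a (k / n ^ 2) := by
  by_cases hk : 11 ∣ k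
  · obtain ⟨j, rfl⟩ := hk
    rcases Nat.eq_zero_or_pos j with rfl | hj
    · simp [ball, dil]
    unfold dil
    rw [if_pos (dvd_mul_right 11 j), Nat.mul_div_cancel_left j (by norm_num)]
    have e1 : 1 / 11 * ball a j =
        ∑ n ∈ (Icc 1 (11 * j)).filter (fun n => n ^ 2 ∣ 11 * j),
          (if 11 ∣ (11 * j / n ^ 2) then l2 a (11 * j / n ^ 2) else 0) := by
      rw [← sum_filter, filter_filter]
      unfold ball
      rw [mul_sum]
      refine sum_congr_of_eq_on_inter ?_ ?_ ?_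
      · intro n hn hn'
        exfalso
        apply hn'
        rw [mem_filter, mem_Icc] at hn ⊢
        obtain ⟨⟨h1, h2⟩, h3⟩ := hn
        refine ⟨⟨h1, by omega⟩, h3.mul_left 11, ?_⟩
        rw [Nat.mul_div_assoc 11 h3]
        exact dvd_mul_right _ _
      · intro n hn hn'
        exfalso
        apply hn'
        rw [mem_filter, mem_Icc] at hn ⊢
        obtain ⟨⟨h1, h2⟩, h3, h4⟩ := hn
        have h5 : n ^ 2 ∣ j := by
          obtain ⟨m, hm⟩ := h4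
          have h6 : 11 * j = n ^ 2 * (11 * m) := by rw [← hm, Nat.mul_div_cancel' h3]
          exact ⟨m, by nlinarith⟩
        refine ⟨⟨h1, ?_⟩, h5⟩
        calc n ≤ n ^ 2 := Nat.le_self_pow (by norm_num) n
          _ ≤ j := Nat.le_of_dvd hj h5
      · intro n hn _
        rw [mem_filter, mem_Icc] at hn
        rw [Nat.mul_div_assoc 11 hn.2, l2_mul h]
        rfl
    rw [e1]
    unfold ball
    rw [← sum_sub_distrib]
    refine sum_congr rfl fun n _ => ?_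
    unfold m2 l2
    split_ifs <;> ring
  · unfold dil
    rw [if_neg hk, mul_zero, sub_zero]
    unfold ball
    refine sum_congr rfl fun n hn => ?_
    rw [mem_filter] at hn
    unfold m2
    rw [if_neg]
    · rfl
    · intro h1
      apply hk
      rw [← Nat.div_mul_cancel hn.2]
      exact h1.mul_right _

lemma step2 (a : ℕ → ℤ) (k : ℕ) :
    (∑ n ∈ (Icc 1 k).filter (fun n => n ^ 2 ∣ k), m2 a (k / n ^ 2)) -
      1 * dil 121 (fun k => ∑ n ∈ (Icc 1 k).filter (fun n => n ^ 2 ∣ k), m2 a (k / n ^ 2)) k =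
      H361.bb a k := by
  have e1 : dil 121 (fun k => ∑ n ∈ (Icc 1 k).filter (fun n => n ^ 2 ∣ k), m2 a (k / n ^ 2)) k =
      ∑ n ∈ (Icc 1 k).filter (fun n => n ^ 2 ∣ k), (if 11 ∣ n then m2 a (k / n ^ 2) else 0) := by
    rw [← sum_filter, filter_filter]
    unfold dil
    by_cases hk : 121 ∣ k
    · rw [if_pos hk]
      obtain ⟨j, rfl⟩ := hk
      rw [Nat.mul_div_cancel_left j (by norm_num)]
      refine sum_nbij' (fun n => 11 * n) (fun n => n / 11) ?_ ?_ ?_ ?_ ?_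
      · intro n hn
        rw [mem_filter, mem_Icc] at hn ⊢
        obtain ⟨⟨h1, h2⟩, h3⟩ := hn
        refine ⟨⟨by omega, by omega⟩, ?_, dvd_mul_right _ _⟩
        rw [mul_pow]
        exact mul_dvd_mul (by norm_num) h3
      · intro n hn
        rw [mem_filter, mem_Icc] at hn ⊢
        obtain ⟨⟨h1, h2⟩, h3, m, rfl⟩ := hn
        rw [Nat.mul_div_cancel_left m (by norm_num)]
        have h4 : m ^ 2 ∣ j := by
          rw [mul_pow] at h3
          exact (Nat.mul_dvd_mul_iff_left (show 0 < 11 ^ 2 by norm_num)).1 h3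
        have hj : 0 < j := by
          rcases Nat.eq_zero_or_pos j with rfl | hj
          · omega
          · exact hj
        refine ⟨⟨by omega, ?_⟩, h4⟩
        calc m ≤ m ^ 2 := Nat.le_self_pow (by norm_num) m
          _ ≤ j := Nat.le_of_dvd hj h4
      · intro n _
        exact Nat.mul_div_cancel_left n (by norm_num)
      · intro n hn
        rw [mem_filter] at hn
        exact Nat.mul_div_cancel' hn.2.2
      · intro n _
        rw [mul_pow]
        congr 1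
        exact (Nat.mul_div_mul_left j (n ^ 2) (show 0 < 11 ^ 2 by norm_num)).symm
    · rw [if_neg hk]
      symm
      apply sum_eq_zero
      intro n hn
      rw [mem_filter] at hn
      exfalso
      apply hk
      obtain ⟨m, hm⟩ := hn.2.2
      refine dvd_trans ?_ hn.2.1
      rw [hm]
      exact ⟨m ^ 2, by ring⟩
  rw [e1, one_mul, ← sum_sub_distrib]
  unfold H361.bb
  by_cases hk : k.Coprime 11
  · rw [if_pos hk]
    have hk' : ¬ 11 ∣ k := by
      intro h1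
      have := Nat.eq_one_of_dvd_coprimes hk h1 dvd_rfl
      omega
    refine sum_congr rfl fun n hn => ?_
    rw [mem_filter] at hn
    have h1 : ¬ 11 ∣ n := fun h => hk' ((h.trans (dvd_pow_self n (by norm_num))).trans hn.2)
    have h2 : ¬ 11 ∣ k / n ^ 2 := fun h => hk' (by
      rw [← Nat.div_mul_cancel hn.2]
      exact h.mul_right _)
    rw [if_neg h1, sub_zero]
    unfold m2
    rw [if_neg h2]
    rfl
  · rw [if_neg hk]
    have hp : Nat.Prime 11 := by norm_num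
    have hk' : 11 ∣ k := by
      by_contra h
      exact hk ((Nat.Prime.coprime_iff_not_dvd hp).2 h).symm
    refine sum_eq_zero fun n hn => ?_
    rw [mem_filter] at hn
    by_cases h1 : 11 ∣ n
    · rw [if_pos h1, sub_self]
    · rw [if_neg h1, sub_zero]
      unfold m2
      rw [if_pos]
      have h2 : 11 ∣ n ^ 2 * (k / n ^ 2) := by rwa [Nat.mul_div_cancel' hn.2]
      exact ((hp.dvd_mul).1 h2).resolve_left fun h => h1 (hp.dvd_of_dvd_pow h)

/-- **Removal of the prime `11`.** -/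
theorem B1_of_all {a : ℕ → ℤ} (h : ∀ n, a (11 * n) ^ 2 = a n ^ 2) {V : ℝ} (hV : 0 < V)
    (H : PS (ball a) V) : H361.B1 a := by
  have h1 := (H.sub_dil (1 / 11) (q := 11) (by norm_num))
  have e1 : (fun k => ball a k - 1 / 11 * dil 11 (ball a) k) =
      fun k => ∑ n ∈ (Icc 1 k).filter (fun n => n ^ 2 ∣ k), m2 a (k / n ^ 2) :=
    funext fun k => step1 h k
  rw [e1] at h1
  have h2 := h1.sub_dil 1 (q := 121) (by norm_num)
  have e2 : (fun k => (∑ n ∈ (Icc 1 k).filter (fun n => n ^ 2 ∣ k), m2 a (k / n ^ 2)) -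
      1 * dil 121 (fun k => ∑ n ∈ (Icc 1 k).filter (fun n => n ^ 2 ∣ k), m2 a (k / n ^ 2)) k) =
      H361.bb a := funext fun k => step2 a k
  rw [e2] at h2
  obtain ⟨C, δ, hδ, hC⟩ := h2
  exact ⟨_, C, δ, by norm_num; linarith, hδ, hC⟩

end Vale.Agent.P004H.H2
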