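import Vale.Agent.P004H.H392.RS5
import Vale.Agent.P004H.H924.Tau
import Vale.Agent.P004H.H2.Rem11

/-!
# P004 (`X_0(11)`), row R13: from the functional equation to the sharp mean value
-/

namespace Vale.Agent.P004H.H2

/-- functional equation and positivity give the sharp mean value with power saving -/
theorem landau {b : ℕ → ℝ} {c : ℝ} (hb : H392.Dat b) (hc : H392.FE b c) (hc0 : 0 < c) :
    ∃ V : ℝ, 0 < V ∧ PS b V := by
  obtain ⟨V, K, Rm, hV, _, hR, hRB, hK⟩ := H392.input hb hc hc0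
  obtain ⟨C, δ, hδ, h⟩ := H924.tau b hb.nonneg (hb.summ (3 / 2) (by norm_num)) V hV.le Rm
    (hR.mono fun s hs => by
      have h1 := hs.1
      show (0 : ℝ) < s.re
      linarith)
    (fun s hs => hRB s (by rw [hs]; norm_num)) K hK
  exact ⟨V, hV, C, δ, hδ, h⟩

/-- **B1** from the functional equation of `86` -/
theorem B1_of_FE {a : ℕ → ℤ} {c : ℝ} (hb : H392.Dat (ball a)) (hc : H392.FE (ball a) c)
    (hc0 : 0 < c) (h : ∀ n, a (11 * n) ^ 2 = a n ^ 2) : H361.B1 a := by
  obtain ⟨V, hV, hP⟩ := landau hb hc hc0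
  exact B1_of_all h hV hP

end Vale.Agent.P004H.H2
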