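import Mathlib

/-!
# P004 (`X_0(11)`), row R13: the theta kernel over `ℤ²`
-/

open Real Complex MeasureTheory Set Filter
open scoped Topology

namespace Vale.Agent.P004H.H2

/-- the term of the theta kernel over `ℤ²` -/
noncomputable def thT (x y t : ℝ) (p : ℤ × ℤ) : ℝ :=
  Real.exp (-(π * t * ((p.1 * x + p.2) ^ 2 + (p.1 * y) ^ 2) / y))

/-- the mixed term after Poisson summation in `d` -/
noncomputable def mix (x y t : ℝ) (p : ℤ × ℤ) : ℂ :=
  (Real.exp (-(π * t * p.1 ^ 2 * y)) : ℂ) * jacobiTheta₂_term p.2 (p.1 * x) (I * (y / t))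

lemma thT_pos (x y t : ℝ) (p : ℤ × ℤ) : 0 < thT x y t p := Real.exp_pos _

lemma thT_eq {x y t : ℝ} (hy : 0 < y) (c d : ℤ) :
    (thT x y t (c, d) : ℂ) = (Real.exp (-(π * t * c ^ 2 * y)) : ℂ) *
      (cexp (-(π * t * (c * x) ^ 2 / y)) *
        jacobiTheta₂_term d (I * (t / y) * (c * x)) (I * (t / y))) := by
  have hy' : (y : ℂ) ≠ 0 := by exact_mod_cast hy.ne'
  unfold thT jacobiTheta₂_term
  push_cast
  rw [← Complex.exp_add, ← Complex.exp_add]
  congr 1
  field_simp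
  ring_nf
  simp only [I_sq]
  ring

lemma im_pos' {y t : ℝ} (hy : 0 < y) (ht : 0 < t) : 0 < (I * ((y : ℂ) / t)).im := by
  have : I * ((y : ℂ) / t) = ((y / t : ℝ) : ℂ) * I := by push_cast; ring
  rw [this, Complex.mul_I_im, Complex.ofReal_re]
  positivity

lemma sum_row {x y t : ℝ} (hy : 0 < y) (ht : 0 < t) (c : ℤ) :
    cexp (-(π * t * (c * x) ^ 2 / y)) * jacobiTheta₂ (I * (t / y) * (c * x)) (I * (t / y)) =
      (√(y / t) : ℝ) * jacobiTheta₂ (c * x) (I * (y / t)) := by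
  have hy' : (y : ℂ) ≠ 0 := by exact_mod_cast hy.ne'
  have ht' : (t : ℂ) ≠ 0 := by exact_mod_cast ht.ne'
  have hI : I ≠ 0 := I_ne_zero
  rw [jacobiTheta₂_functional_equation]
  have e1 : I * ((t : ℂ) / y) * (c * x) / (I * (t / y)) = c * x := by
    field_simp
  have e2 : -1 / (I * ((t : ℂ) / y)) = I * (y / t) := by
    field_simp
    simp
  have e3 : cexp (-(π * t * (c * x) ^ 2 / y)) *
      cexp (-π * I * (I * ((t : ℂ) / y) * (c * x)) ^ 2 / (I * (t / y))) = 1 := by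
    rw [← Complex.exp_add]
    have : -((π : ℂ) * t * (c * x) ^ 2 / y) +
        -π * I * (I * ((t : ℂ) / y) * (c * x)) ^ 2 / (I * (t / y)) = 0 := by
      field_simp
      ring_nf
      simp only [I_sq]
      ring
    rw [this, Complex.exp_zero]
  have e4 : (1 : ℂ) / (-I * (I * ((t : ℂ) / y))) ^ (1 / 2 : ℂ) = (√(y / t) : ℝ) := by
    have : -I * (I * ((t : ℂ) / y)) = ((t / y : ℝ) : ℂ) := by
      push_cast
      linear_combination (-(t : ℂ) / y) * I_sq
    rw [this, Real.sqrt_eq_rpow, Complex.ofReal_cpow (by positivity)]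
    have h2 : ((y / t : ℝ) : ℂ) = (((t / y : ℝ)⁻¹ : ℝ) : ℂ) := by rw [inv_div]
    rw [h2, Complex.ofReal_inv, Complex.inv_cpow]
    · push_cast
      rw [one_div]
    · rw [Complex.arg_ofReal_of_nonneg (by positivity)]
      exact pi_pos.ne
  rw [e1, e2, e4]
  linear_combination ((√(y / t) : ℝ) : ℂ) * jacobiTheta₂ (c * x) (I * (y / t)) * e3

lemma gauss_sum {a : ℝ} (ha : 0 < a) : Summable fun n : ℤ => Real.exp (-(π * a * (n : ℝ) ^ 2)) := by
  have h := (summable_jacobiTheta₂_term_iff 0 (I * a)).2 (by simpa using ha)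
  refine h.norm.congr fun n => ?_
  rw [norm_jacobiTheta₂_term]
  congr 1
  simp
  ring

lemma mix_norm (x y t : ℝ) (p : ℤ × ℤ) : ‖mix x y t p‖ =
    Real.exp (-(π * (t * y) * (p.1 : ℝ) ^ 2)) * Real.exp (-(π * (y / t) * (p.2 : ℝ) ^ 2)) := by
  unfold mix
  rw [norm_mul, norm_jacobiTheta₂_term, Complex.norm_real, Real.norm_of_nonneg (Real.exp_pos _).le]
  have e1 : ((p.1 : ℂ) * x).im = 0 := by simp
  have e2 : (I * ((y : ℂ) / t)).im = y / t := by
    have : I * ((y : ℂ) / t) = ((y / t : ℝ) : ℂ) * I := by push_cast; ring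
    rw [this, Complex.mul_I_im, Complex.ofReal_re]
  rw [e1, e2]
  congr 2 <;> ring

lemma mix_summable {x y t : ℝ} (hy : 0 < y) (ht : 0 < t) : Summable (mix x y t) := by
  refine Summable.of_norm ?_
  refine (Summable.mul_of_nonneg (gauss_sum (mul_pos ht hy)) (gauss_sum (div_pos hy ht))
    (fun _ => (Real.exp_pos _).le) (fun _ => (Real.exp_pos _).le)).congr fun p => ?_
  rw [mix_norm]

lemma mix_swap {x y t : ℝ} (ht : 0 < t) (p : ℤ × ℤ) : mix x y (1 / t) p = mix x y t p.swap := by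
  have ht' : (t : ℂ) ≠ 0 := by exact_mod_cast ht.ne'
  unfold mix jacobiTheta₂_term
  push_cast
  rw [← Complex.exp_add, ← Complex.exp_add]
  congr 1
  simp only [Prod.fst_swap, Prod.snd_swap]
  field_simp
  ring_nf
  simp only [I_sq]
  ring

lemma row_hasSum {x y t : ℝ} (hy : 0 < y) (ht : 0 < t) (c : ℤ) :
    HasSum (fun d : ℤ => (thT x y t (c, d) : ℂ)) ((√(y / t) : ℝ) *
      ((Real.exp (-(π * t * c ^ 2 * y)) : ℂ) * jacobiTheta₂ (c * x) (I * (y / t)))) := by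
  have h1 := hasSum_jacobiTheta₂_term (I * (t / y) * (c * x)) (im_pos' ht hy)
  have h2 := (h1.mul_left (cexp (-(π * t * (c * x) ^ 2 / y)))).mul_left
    (Real.exp (-(π * t * c ^ 2 * y)) : ℂ)
  rw [sum_row hy ht] at h2
  have h3 : (fun d : ℤ => (thT x y t (c, d) : ℂ)) = fun d : ℤ =>
      (Real.exp (-(π * t * c ^ 2 * y)) : ℂ) * (cexp (-(π * t * (c * x) ^ 2 / y)) *
        jacobiTheta₂_term d (I * (t / y) * (c * x)) (I * (t / y))) :=
    funext fun d => thT_eq hy c d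
  have h4 : ((√(y / t) : ℝ) : ℂ) *
      ((Real.exp (-(π * t * c ^ 2 * y)) : ℂ) * jacobiTheta₂ (c * x) (I * (y / t))) =
      (Real.exp (-(π * t * c ^ 2 * y)) : ℂ) *
        (((√(y / t) : ℝ) : ℂ) * jacobiTheta₂ (c * x) (I * (y / t))) := by ring
  rw [h3, h4]
  exact h2

lemma row_norm {x y t : ℝ} (hy : 0 < y) (ht : 0 < t) (c : ℤ) :
    ‖jacobiTheta₂ (c * x) (I * (y / t))‖ ≤ ∑' n : ℤ, Real.exp (-(π * (y / t) * (n : ℝ) ^ 2)) := by
  have h1 := hasSum_jacobiTheta₂_term ((c : ℂ) * x) (im_pos' hy ht)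
  rw [← h1.tsum_eq]
  refine tsum_of_norm_bounded (gauss_sum (div_pos hy ht)).hasSum fun n => ?_
  rw [norm_jacobiTheta₂_term]
  have e1 : ((c : ℂ) * x).im = 0 := by simp
  have e2 : (I * ((y : ℂ) / t)).im = y / t := by
    have : I * ((y : ℂ) / t) = ((y / t : ℝ) : ℂ) * I := by push_cast; ring
    rw [this, Complex.mul_I_im, Complex.ofReal_re]
  rw [e1, e2]
  apply le_of_eq
  congr 1
  ring

theorem thT_summable {x y t : ℝ} (hy : 0 < y) (ht : 0 < t) : Summable (thT x y t) := by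
  rw [summable_prod_of_nonneg (fun p => (thT_pos x y t p).le)]
  have hrow : ∀ c : ℤ, Summable fun d : ℤ => thT x y t (c, d) := fun c =>
    Complex.summable_ofReal.1 (row_hasSum hy ht c).summable
  refine ⟨hrow, ?_⟩
  set K : ℝ := ∑' n : ℤ, Real.exp (-(π * (y / t) * (n : ℝ) ^ 2)) with hK
  refine Summable.of_nonneg_of_le (fun c => tsum_nonneg fun d => (thT_pos x y t _).le)
    (fun c => ?_) ((gauss_sum (mul_pos ht hy)).mul_left (√(y / t) * K))
  have h1 := (row_hasSum (x := x) hy ht c).tsum_eq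
  have h2 : ((∑' d : ℤ, thT x y t (c, d) : ℝ) : ℂ) = ∑' d : ℤ, (thT x y t (c, d) : ℂ) :=
    Complex.ofReal_tsum _
  rw [← h2] at h1
  have h3 : |∑' d : ℤ, thT x y t (c, d)| ≤ √(y / t) * K *
      Real.exp (-(π * (t * y) * (c : ℝ) ^ 2)) := by
    rw [← Real.norm_eq_abs, ← Complex.norm_real, h1, norm_mul, norm_mul, Complex.norm_real,
      Complex.norm_real, Real.norm_of_nonneg (Real.sqrt_nonneg _),
      Real.norm_of_nonneg (Real.exp_pos _).le]
    have h4 := row_norm (x := x) hy ht c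
    calc √(y / t) * (Real.exp (-(π * t * c ^ 2 * y)) * ‖jacobiTheta₂ (c * x) (I * (y / t))‖) ≤
        √(y / t) * (Real.exp (-(π * t * c ^ 2 * y)) * K) := by gcongr
      _ = _ := by
        rw [show -(π * t * (c : ℝ) ^ 2 * y) = -(π * (t * y) * (c : ℝ) ^ 2) by ring]
        ring
  exact (le_abs_self _).trans h3

/-- the theta kernel -/
noncomputable def Th (x y t : ℝ) : ℝ := ∑' p : ℤ × ℤ, thT x y t p

lemma Th_mix {x y t : ℝ} (hy : 0 < y) (ht : 0 < t) :
    (Th x y t : ℂ) = (√(y / t) : ℝ) * ∑' p : ℤ × ℤ, mix x y t p := by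
  have h1 : Summable fun p : ℤ × ℤ => (thT x y t p : ℂ) :=
    Complex.summable_ofReal.2 (thT_summable hy ht)
  unfold Th
  rw [Complex.ofReal_tsum, h1.tsum_prod' (fun c => (row_hasSum hy ht c).summable),
    (mix_summable hy ht).tsum_prod' (fun c => ?_), ← tsum_mul_left]
  · refine tsum_congr fun c => ?_
    rw [(row_hasSum hy ht c).tsum_eq]
    congr 1
    have h2 := (hasSum_jacobiTheta₂_term ((c : ℂ) * x) (im_pos' hy ht)).mul_left
      (Real.exp (-(π * t * c ^ 2 * y)) : ℂ)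
    exact h2.tsum_eq.symm
  · exact ((hasSum_jacobiTheta₂_term ((c : ℂ) * x) (im_pos' hy ht)).mul_left
      (Real.exp (-(π * t * c ^ 2 * y)) : ℂ)).summable

/-- **The functional equation of the theta kernel.** -/
theorem Th_inv {x y t : ℝ} (hy : 0 < y) (ht : 0 < t) : Th x y (1 / t) = t * Th x y t := by
  have h1 := Th_mix (x := x) hy ht
  have h2 := Th_mix (x := x) hy (one_div_pos.2 ht)
  have h3 : ∑' p : ℤ × ℤ, mix x y (1 / t) p = ∑' p : ℤ × ℤ, mix x y t p := by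
    rw [← (Equiv.prodComm ℤ ℤ).tsum_eq (mix x y t)]
    exact tsum_congr fun p => mix_swap ht p
  rw [h3] at h2
  have h4 : (√(y / (1 / t)) : ℝ) = t * √(y / t) := by
    have : y / (1 / t) = t ^ 2 * (y / t) := by field_simp
    rw [this, Real.sqrt_mul (by positivity), Real.sqrt_sq ht.le]
  have h5 : ((Th x y (1 / t) : ℝ) : ℂ) = ((t * Th x y t : ℝ) : ℂ) := by
    rw [h2, h4]
    push_cast
    rw [h1]
    ring
  exact_mod_cast h5

/-- literal form asked by helper86 -/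
theorem theta_inv {x y t : ℝ} (hy : 0 < y) (ht : 0 < t) :
    ∑' p : ℤ × ℤ, Real.exp (-(π * (1 / t) * ((p.1 * x + p.2) ^ 2 + (p.1 * y) ^ 2) / y)) =
      t * ∑' p : ℤ × ℤ, Real.exp (-(π * t * ((p.1 * x + p.2) ^ 2 + (p.1 * y) ^ 2) / y)) :=
  Th_inv hy ht

theorem theta_summable {x y t : ℝ} (hy : 0 < y) (ht : 0 < t) :
    Summable fun p : ℤ × ℤ =>
      Real.exp (-(π * t * ((p.1 * x + p.2) ^ 2 + (p.1 * y) ^ 2) / y)) :=
  thT_summable hy ht

end Vale.Agent.P004H.H2
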