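import Mathlib

/-!
# P004 (`X_0(11)`), row R13: the kernel of the Rankin-Selberg identity
-/

open Real MeasureTheory Set Filter
open scoped Topology

namespace Vale.Agent.P004H.H2

/-- the kernel `W(u) = 2 ∫ exp (-4 π v - π u / v) dv` -/
noncomputable def W (u : ℝ) : ℝ :=
  2 * ∫ v in Ioi (0 : ℝ), Real.exp (-(4 * π * v) - π * u / v)

lemma int0 : IntegrableOn (fun v : ℝ => Real.exp (-(4 * π * v))) (Ioi 0) := by
  have h := integrableOn_exp_mul_Ioi (a := -(4 * π)) (by have := pi_pos; linarith) 0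
  refine h.congr_fun (fun v _ => ?_) measurableSet_Ioi
  simp only
  congr 1
  ring

lemma ker_cont (u : ℝ) :
    ContinuousOn (fun v : ℝ => Real.exp (-(4 * π * v) - π * u / v)) (Ioi 0) := by
  have : ∀ v ∈ Ioi (0 : ℝ), v ≠ 0 := fun v hv => (mem_Ioi.1 hv).ne'
  fun_prop (disch := assumption)

lemma ker_le {u v : ℝ} (hu : 0 ≤ u) (hv : 0 < v) :
    Real.exp (-(4 * π * v) - π * u / v) ≤ Real.exp (-(4 * π * v)) := by
  apply Real.exp_le_exp.2
  have : 0 ≤ π * u / v := by positivity
  linarith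

lemma ker_int {u : ℝ} (hu : 0 ≤ u) :
    IntegrableOn (fun v : ℝ => Real.exp (-(4 * π * v) - π * u / v)) (Ioi 0) := by
  refine Integrable.mono' int0 ((ker_cont u).aestronglyMeasurable measurableSet_Ioi) ?_
  refine (ae_restrict_iff' measurableSet_Ioi).2 (Eventually.of_forall fun v hv => ?_)
  rw [Real.norm_of_nonneg (Real.exp_pos _).le]
  exact ker_le hu hv

lemma W_nonneg (u : ℝ) : 0 ≤ W u := by
  unfold W
  exact mul_nonneg (by norm_num) (setIntegral_nonneg measurableSet_Ioi
    fun v _ => (Real.exp_pos _).le)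

lemma W_anti {u w : ℝ} (hu : 0 ≤ u) (huw : u ≤ w) : W w ≤ W u := by
  unfold W
  refine mul_le_mul_of_nonneg_left ?_ (by norm_num)
  refine setIntegral_mono_on (ker_int (hu.trans huw)) (ker_int hu) measurableSet_Ioi fun v hv => ?_
  apply Real.exp_le_exp.2
  have hv0 : 0 < v := hv
  have : π * u / v ≤ π * w / v := by gcongr
  linarith

lemma W_le {u : ℝ} (hu : 0 ≤ u) : W u ≤ W 0 := W_anti le_rfl hu

lemma W_one_pos : 0 < W 1 := by
  unfold W
  refine mul_pos (by norm_num) ?_
  rw [setIntegral_pos_iff_support_of_nonneg_ae]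
  · have : Function.support (fun v : ℝ => Real.exp (-(4 * π * v) - π * 1 / v)) = univ := by
      ext v
      simp [(Real.exp_pos _).ne']
    rw [this, univ_inter]
    simp
  · exact Eventually.of_forall fun v => (Real.exp_pos _).le
  · exact ker_int zero_le_one

lemma exp_neg_le (N : ℕ) {x : ℝ} (hx : 0 < x) : Real.exp (-x) ≤ N.factorial / x ^ N := by
  have h1 := Real.pow_div_factorial_le_exp x hx.le N
  have hf : (0 : ℝ) < N.factorial := by exact_mod_cast N.factorial_pos
  rw [Real.exp_neg, le_div_iff₀ (by positivity), inv_mul_le_iff₀ (Real.exp_pos _)]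
  rw [div_le_iff₀ hf] at h1
  exact h1

lemma int_pow (N : ℕ) : IntegrableOn (fun v : ℝ => v ^ N * Real.exp (-(4 * π * v))) (Ioi 0) := by
  have h := _root_.integrableOn_rpow_mul_exp_neg_mul_rpow (s := N) (p := 1) (b := 4 * π)
    (by have : (0 : ℝ) ≤ N := Nat.cast_nonneg N
        linarith) one_pos (by positivity)
  refine h.congr_fun (fun v _ => ?_) measurableSet_Ioi
  simp only [Real.rpow_one, Real.rpow_natCast]
  congr 2
  ring

lemma W_pow (N : ℕ) : ∃ C : ℝ, 0 ≤ C ∧ ∀ u : ℝ, 0 < u → W u ≤ C / u ^ N := by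
  set J : ℝ := ∫ v in Ioi (0 : ℝ), v ^ N * Real.exp (-(4 * π * v)) with hJ
  have hJ0 : 0 ≤ J := setIntegral_nonneg measurableSet_Ioi fun v hv => by
    have : 0 < v := hv
    positivity
  refine ⟨2 * (N.factorial / π ^ N) * J, by positivity, fun u hu => ?_⟩
  have h1 : ∫ v in Ioi (0 : ℝ), Real.exp (-(4 * π * v) - π * u / v) ≤
      ∫ v in Ioi (0 : ℝ), (N.factorial / (π * u) ^ N) * (v ^ N * Real.exp (-(4 * π * v))) := by
    refine setIntegral_mono_on (ker_int hu.le) ((int_pow N).const_mul _) measurableSet_Ioi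
      fun v hv => ?_
    have hv0 : 0 < v := hv
    rw [sub_eq_add_neg, Real.exp_add]
    have h2 := exp_neg_le N (x := π * u / v) (by positivity)
    calc Real.exp (-(4 * π * v)) * Real.exp (-(π * u / v)) ≤
        Real.exp (-(4 * π * v)) * (N.factorial / (π * u / v) ^ N) := by gcongr
      _ = _ := by
        rw [div_pow]
        field_simp
  rw [integral_const_mul] at h1
  unfold W
  calc 2 * ∫ v in Ioi (0 : ℝ), Real.exp (-(4 * π * v) - π * u / v) ≤
      2 * ((N.factorial / (π * u) ^ N) * J) := by gcongr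
    _ = _ := by
      rw [mul_pow]
      field_simp

lemma W_cont : ContinuousOn W (Ici 0) := by
  unfold W
  refine continuousOn_const.mul ?_
  refine continuousOn_of_dominated (bound := fun v => Real.exp (-(4 * π * v))) ?_ ?_ int0 ?_
  · intro u hu
    exact (ker_cont u).aestronglyMeasurable measurableSet_Ioi
  · intro u hu
    refine (ae_restrict_iff' measurableSet_Ioi).2 (Eventually.of_forall fun v hv => ?_)
    rw [Real.norm_of_nonneg (Real.exp_pos _).le]
    exact ker_le hu hv
  · refine Eventually.of_forall fun v => ?_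
    fun_prop

lemma W_contOn : ContinuousOn W (Ioi 0) := W_cont.mono Ioi_subset_Ici_self

/-! ### the Mellin transform -/

lemma div_cpow_aux {x : ℝ} (hx : 0 ≤ x) {s : ℂ} :
    ((x : ℂ) / (π : ℂ)) ^ s = (x : ℂ) ^ s / (π : ℂ) ^ s := by
  rw [div_eq_mul_inv, ← Complex.ofReal_inv, Complex.mul_cpow_ofReal_nonneg hx (by positivity),
    Complex.ofReal_inv, Complex.inv_cpow, div_eq_mul_inv]
  rw [Complex.arg_ofReal_of_nonneg pi_pos.le]
  exact pi_pos.ne

/-- complex valued kernel -/
noncomputable def Wc (t : ℝ) : ℂ := (W t : ℂ)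

/-- the Gamma factor -/
noncomputable def gam (s : ℂ) : ℂ :=
  2 * ((π : ℂ) ^ (-s) * (4 * π : ℂ) ^ (-s - 1)) * (Complex.Gamma s * Complex.Gamma (s + 1))

lemma Wc_conv {s : ℂ} (hs : 0 < s.re) : MellinConvergent Wc s := by
  obtain ⟨N, hN⟩ := exists_nat_gt s.re
  obtain ⟨C, hC0, hC⟩ := W_pow N
  refine mellinConvergent_of_isBigO_rpow (a := N) (b := 0) ?_ ?_ hN ?_ hs
  · refine ContinuousOn.locallyIntegrableOn ?_ measurableSet_Ioi
    exact Complex.continuous_ofReal.comp_continuousOn W_contOn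
  · refine Asymptotics.IsBigO.of_bound C ?_
    filter_upwards [eventually_gt_atTop 0] with t ht
    unfold Wc
    rw [Complex.norm_real, Real.norm_of_nonneg (W_nonneg t), Real.rpow_neg ht.le,
      Real.rpow_natCast, Real.norm_of_nonneg (by positivity), ← div_eq_mul_inv]
    exact hC t ht
  · refine Asymptotics.IsBigO.of_bound (W 0) ?_
    filter_upwards [self_mem_nhdsWithin] with t ht
    have ht0 : (0 : ℝ) < t := ht
    unfold Wc
    rw [Complex.norm_real, Real.norm_of_nonneg (W_nonneg t), neg_zero, Real.rpow_zero, norm_one,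
      mul_one]
    exact W_le ht0.le

lemma inner_cpow {s : ℂ} (hs : 0 < s.re) {v : ℝ} (hv : 0 < v) :
    ∫ u in Ioi (0 : ℝ), (u : ℂ) ^ (s - 1) * (Real.exp (-(4 * π * v) - π * u / v) : ℂ) =
      Real.exp (-(4 * π * v)) * ((v / π : ℝ) : ℂ) ^ s * Complex.Gamma s := by
  have h := Complex.integral_cpow_mul_exp_neg_mul_Ioi (a := s) (r := π / v) hs (by positivity)
  have e1 : ∀ u : ℝ, (u : ℂ) ^ (s - 1) * (Real.exp (-(4 * π * v) - π * u / v) : ℂ) =
      (Real.exp (-(4 * π * v)) : ℂ) * ((u : ℂ) ^ (s - 1) * Complex.exp (-((π / v : ℝ) * u))) := by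
    intro u
    rw [sub_eq_add_neg (-(4 * π * v)), Real.exp_add]
    push_cast
    rw [show -((π : ℂ) * u / v) = -(π / v * u) by ring]
    ring
  simp_rw [e1]
  rw [integral_const_mul, h]
  rw [show ((1 : ℂ) / ((π / v : ℝ) : ℂ)) = ((v / π : ℝ) : ℂ) by push_cast; field_simp]
  ring

lemma inner_norm {s : ℂ} (hs : 0 < s.re) {v : ℝ} (hv : 0 < v) :
    ∫ u in Ioi (0 : ℝ), ‖(u : ℂ) ^ (s - 1) * (Real.exp (-(4 * π * v) - π * u / v) : ℂ)‖ =
      Real.exp (-(4 * π * v)) * (v / π) ^ s.re * Real.Gamma s.re := by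
  have h := Real.integral_rpow_mul_exp_neg_mul_Ioi (a := s.re) (r := π / v) hs (by positivity)
  have e1 : ∀ u ∈ Ioi (0 : ℝ), ‖(u : ℂ) ^ (s - 1) * (Real.exp (-(4 * π * v) - π * u / v) : ℂ)‖ =
      Real.exp (-(4 * π * v)) * (u ^ (s.re - 1) * Real.exp (-(π / v * u))) := by
    intro u hu
    have hu0 : (0 : ℝ) < u := hu
    rw [norm_mul, Complex.norm_cpow_eq_rpow_re_of_pos hu0, Complex.norm_real,
      Real.norm_of_nonneg (Real.exp_pos _).le, sub_eq_add_neg (-(4 * π * v)), Real.exp_add,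
      Complex.sub_re, Complex.one_re, show -(π * u / v) = -(π / v * u) by ring]
    ring
  rw [setIntegral_congr_fun measurableSet_Ioi e1, integral_const_mul, h]
  rw [show (1 / (π / v)) = v / π by field_simp]
  ring

lemma prod_meas (s : ℂ) :
    AEStronglyMeasurable (fun p : ℝ × ℝ =>
      (p.1 : ℂ) ^ (s - 1) * (Real.exp (-(4 * π * p.2) - π * p.1 / p.2) : ℂ))
      ((volume.restrict (Ioi (0 : ℝ))).prod (volume.restrict (Ioi (0 : ℝ)))) := by
  rw [Measure.prod_restrict]
  refine ContinuousOn.aestronglyMeasurable ?_ (measurableSet_Ioi.prod measurableSet_Ioi)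
  rintro ⟨u, v⟩ ⟨hu, hv⟩
  have hu0 : (0 : ℝ) < u := hu
  have hv0 : (0 : ℝ) < v := hv
  apply ContinuousAt.continuousWithinAt
  apply ContinuousAt.mul
  · apply ContinuousAt.cpow
    · fun_prop
    · fun_prop
    · exact Or.inl (by simpa using hu0)
  · have h1 : ContinuousAt (fun p : ℝ × ℝ => -(4 * π * p.2) - π * p.1 / p.2) (u, v) := by
      apply ContinuousAt.sub (by fun_prop)
      apply ContinuousAt.div (by fun_prop) (by fun_prop)
      exact hv0.ne'
    exact Complex.continuous_ofReal.continuousAt.comp (Real.continuous_exp.continuousAt.comp h1)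

lemma outer_int {σ : ℝ} (hσ : 0 < σ) :
    IntegrableOn (fun v : ℝ => Real.exp (-(4 * π * v)) * (v / π) ^ σ * Real.Gamma σ) (Ioi 0) := by
  have h := _root_.integrableOn_rpow_mul_exp_neg_mul_rpow (s := σ) (p := 1) (b := 4 * π)
    (by linarith) one_pos (by positivity)
  have h2 := h.const_mul (π ^ (-σ) * Real.Gamma σ)
  refine IntegrableOn.congr_fun h2 (fun v hv => ?_) measurableSet_Ioi
  have hv0 : (0 : ℝ) < v := hv
  simp only [Real.rpow_one]
  rw [Real.div_rpow hv0.le pi_pos.le, Real.rpow_neg pi_pos.le,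
    show -(4 * π) * v = -(4 * π * v) by ring]
  ring

lemma prod_int {s : ℂ} (hs : 0 < s.re) :
    Integrable (fun p : ℝ × ℝ =>
      (p.1 : ℂ) ^ (s - 1) * (Real.exp (-(4 * π * p.2) - π * p.1 / p.2) : ℂ))
      ((volume.restrict (Ioi (0 : ℝ))).prod (volume.restrict (Ioi (0 : ℝ)))) := by
  rw [integrable_prod_iff' (prod_meas s)]
  constructor
  · refine (ae_restrict_iff' measurableSet_Ioi).2 (Eventually.of_forall fun v hv => ?_)
    have hv0 : (0 : ℝ) < v := hv
    by_contra hcon
    have h1 := inner_norm hs hv0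
    have h2 : ¬ Integrable (fun u : ℝ =>
        ‖(u : ℂ) ^ (s - 1) * (Real.exp (-(4 * π * v) - π * u / v) : ℂ)‖)
        (volume.restrict (Ioi 0)) := by
      intro h3
      refine hcon ((integrable_norm_iff ?_).1 h3)
      refine ContinuousOn.aestronglyMeasurable ?_ measurableSet_Ioi
      intro u hu
      have hu0 : (0 : ℝ) < u := hu
      apply ContinuousAt.continuousWithinAt
      apply ContinuousAt.mul
      · apply ContinuousAt.cpow
        · fun_prop
        · fun_prop
        · exact Or.inl (by simpa using hu0)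
      · have h4 : ContinuousAt (fun x : ℝ => Real.exp (-(4 * π * v) - π * x / v)) u := by fun_prop
        exact Complex.continuous_ofReal.continuousAt.comp h4
    rw [integral_undef h2] at h1
    have h3 : 0 < Real.exp (-(4 * π * v)) * (v / π) ^ s.re * Real.Gamma s.re := by
      have := Real.Gamma_pos_of_pos hs
      positivity
    linarith
  · refine IntegrableOn.congr_fun (outer_int hs) (fun v hv => ?_) measurableSet_Ioi
    exact (inner_norm hs hv).symm

theorem mellin_W {s : ℂ} (hs : 0 < s.re) : mellin Wc s = gam s := by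
  have h1 : mellin Wc s = 2 * ∫ u in Ioi (0 : ℝ), ∫ v in Ioi (0 : ℝ),
      (u : ℂ) ^ (s - 1) * (Real.exp (-(4 * π * v) - π * u / v) : ℂ) := by
    unfold mellin
    rw [← integral_const_mul]
    refine setIntegral_congr_fun measurableSet_Ioi fun u _ => ?_
    simp only [Wc, W, smul_eq_mul]
    rw [integral_const_mul]
    push_cast [← integral_complex_ofReal]
    ring
  rw [h1, integral_integral_swap (prod_int hs)]
  have h2 : ∫ v in Ioi (0 : ℝ), ∫ u in Ioi (0 : ℝ),
      (u : ℂ) ^ (s - 1) * (Real.exp (-(4 * π * v) - π * u / v) : ℂ) =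
      ∫ v in Ioi (0 : ℝ), ((π : ℂ) ^ (-s) * Complex.Gamma s) *
        ((v : ℂ) ^ (s + 1 - 1) * Complex.exp (-((4 * π : ℝ) * v))) := by
    refine setIntegral_congr_fun measurableSet_Ioi fun v hv => ?_
    have hv0 : (0 : ℝ) < v := hv
    rw [inner_cpow hs hv0, Complex.ofReal_div, div_cpow_aux hv0.le, add_sub_cancel_right,
      Complex.cpow_neg]
    push_cast
    ring
  rw [h2, integral_const_mul, Complex.integral_cpow_mul_exp_neg_mul_Ioi (by simp; linarith)
    (by positivity)]
  unfold gam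
  have h3 : ((1 : ℂ) / ((4 * π : ℝ) : ℂ)) ^ (s + 1) = (4 * π : ℂ) ^ (-s - 1) := by
    rw [one_div, Complex.inv_cpow, ← Complex.cpow_neg]
    · push_cast
      congr 1
      ring
    · rw [Complex.arg_ofReal_of_nonneg (by positivity)]
      exact pi_pos.ne
  rw [h3]
  ring

end Vale.Agent.P004H.H2
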